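import Mathlib

/-!
# Row 211 / S0326: zero-diagonal orthonormal frame of a trace-free endomorphism of the plane

`exists_frame`: a trace-free continuous linear map `A` of `EuclideanSpace ℝ (Fin 2)` has an
orthonormal frame `v = (c, s)`, `w = (-s, c)` with `⟪A v, v⟫ = ⟪A w, w⟫ = 0` and
`⟪A w, v⟫ * ⟪A v, w⟫ = - det A`.
-/

set_option autoImplicit false

namespace Crest.Agent.Helper33

local notation "E2" => EuclideanSpace ℝ (Fin 2)

theorem inner_fin2 (x y : E2) : inner ℝ x y = x 0 * y 0 + x 1 * y 1 := by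
  simp [PiLp.inner_apply, Fin.sum_univ_two, mul_comm]

theorem norm_sq_fin2 (x : E2) : ‖x‖ ^ 2 = x 0 ^ 2 + x 1 ^ 2 := by
  rw [← real_inner_self_eq_norm_sq, inner_fin2]; ring

theorem ext_fin2 {x y : E2} (h0 : x 0 = y 0) (h1 : x 1 = y 1) : x = y := by
  ext i; fin_cases i <;> simp [h0, h1]

theorem eq_single_fin2 (z : E2) :
    z = z 0 • (EuclideanSpace.single 0 1 : E2) + z 1 • (EuclideanSpace.single 1 1 : E2) := by
  apply ext_fin2 <;> simp

theorem clm_apply_fin2 (A : E2 →L[ℝ] E2) (z : E2) :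
    A z = z 0 • A (EuclideanSpace.single 0 1) + z 1 • A (EuclideanSpace.single 1 1) := by
  conv_lhs => rw [eq_single_fin2 z]
  simp

theorem clm_apply_fin2_zero (A : E2 →L[ℝ] E2) (z : E2) :
    A z 0 = z 0 * A (EuclideanSpace.single 0 1) 0 + z 1 * A (EuclideanSpace.single 1 1) 0 := by
  conv_lhs => rw [clm_apply_fin2 A z]
  simp

theorem clm_apply_fin2_one (A : E2 →L[ℝ] E2) (z : E2) :
    A z 1 = z 0 * A (EuclideanSpace.single 0 1) 1 + z 1 * A (EuclideanSpace.single 1 1) 1 := by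
  conv_lhs => rw [clm_apply_fin2 A z]
  simp

theorem trace_fin2 (A : E2 →L[ℝ] E2) :
    LinearMap.trace ℝ _ A.toLinearMap =
      A (EuclideanSpace.single 0 1) 0 + A (EuclideanSpace.single 1 1) 1 := by
  rw [LinearMap.trace_eq_matrix_trace ℝ (EuclideanSpace.basisFun (Fin 2) ℝ).toBasis]
  simp [Matrix.trace, Fin.sum_univ_two, LinearMap.toMatrix_apply]

theorem det_fin2 (A : E2 →L[ℝ] E2) :
    LinearMap.det A.toLinearMap =
      A (EuclideanSpace.single 0 1) 0 * A (EuclideanSpace.single 1 1) 1 -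
        A (EuclideanSpace.single 1 1) 0 * A (EuclideanSpace.single 0 1) 1 := by
  rw [← LinearMap.det_toMatrix (EuclideanSpace.basisFun (Fin 2) ℝ).toBasis, Matrix.det_fin_two]
  simp [LinearMap.toMatrix_apply]

/-- Algebraic core: a real binary quadratic form `α c² + σ c s - α s²` has a unit zero. -/
theorem exists_unit_zero (α σ : ℝ) :
    ∃ c s : ℝ, c ^ 2 + s ^ 2 = 1 ∧ α * (c ^ 2 - s ^ 2) + σ * (c * s) = 0 := by
  by_cases hα : α = 0
  · exact ⟨1, 0, by norm_num, by simp [hα]⟩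
  · set d : ℝ := Real.sqrt (σ ^ 2 + 4 * α ^ 2) with hd
    have hd2 : d ^ 2 = σ ^ 2 + 4 * α ^ 2 := Real.sq_sqrt (by positivity)
    set t : ℝ := (-σ + d) / (2 * α) with ht
    have hq : α * t ^ 2 + σ * t - α = 0 := by
      rw [ht]; field_simp; nlinarith [hd2]
    have hn : 0 < t ^ 2 + 1 := by positivity
    set n : ℝ := Real.sqrt (t ^ 2 + 1) with hn'
    have hn2 : n ^ 2 = t ^ 2 + 1 := Real.sq_sqrt hn.le
    have hnpos : 0 < n := Real.sqrt_pos.mpr hn
    refine ⟨t / n, 1 / n, ?_, ?_⟩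
    · field_simp; linarith [hn2]
    · have : α * ((t / n) ^ 2 - (1 / n) ^ 2) + σ * (t / n * (1 / n)) =
          (α * t ^ 2 + σ * t - α) / n ^ 2 := by
        field_simp; ring
      rw [this, hq, zero_div]

theorem inner_clm_fin2 (A : E2 →L[ℝ] E2) (x y : E2) :
    inner ℝ (A x) y =
      (x 0 * A (EuclideanSpace.single 0 1) 0 + x 1 * A (EuclideanSpace.single 1 1) 0) * y 0 +
      (x 0 * A (EuclideanSpace.single 0 1) 1 + x 1 * A (EuclideanSpace.single 1 1) 1) * y 1 := by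
  rw [inner_fin2, clm_apply_fin2_zero A x, clm_apply_fin2_one A x]

/-- **Frame lemma.** A trace-free continuous linear map of the Euclidean plane has an orthonormal
frame `v = (c, s)`, `w = (-s, c)` in which its matrix has zero diagonal; the product of the two
off-diagonal entries is `- det A`. -/
theorem exists_frame_coords (A : E2 →L[ℝ] E2) (htr : LinearMap.trace ℝ _ A.toLinearMap = 0) :
    ∃ c s : ℝ, c ^ 2 + s ^ 2 = 1 ∧
      inner ℝ (A !₂[c, s]) (!₂[c, s] : E2) = 0 ∧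
      inner ℝ (A !₂[-s, c]) (!₂[-s, c] : E2) = 0 ∧
      inner ℝ (A !₂[-s, c]) (!₂[c, s] : E2) * inner ℝ (A !₂[c, s]) (!₂[-s, c] : E2) =
        - LinearMap.det A.toLinearMap := by
  rw [trace_fin2] at htr
  rw [det_fin2]
  obtain ⟨c, s, hcs, hq⟩ := exists_unit_zero (A (EuclideanSpace.single 0 1) 0)
    (A (EuclideanSpace.single 1 1) 0 + A (EuclideanSpace.single 0 1) 1)
  refine ⟨c, s, hcs, ?_, ?_, ?_⟩
  · rw [inner_clm_fin2]
    simp only [Matrix.cons_val_zero, Matrix.cons_val_one]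
    linear_combination hq + s ^ 2 * htr
  · rw [inner_clm_fin2]
    simp only [Matrix.cons_val_zero, Matrix.cons_val_one]
    linear_combination -hq + c ^ 2 * htr
  · rw [inner_clm_fin2 A !₂[-s, c] !₂[c, s], inner_clm_fin2 A !₂[c, s] !₂[-s, c]]
    simp only [Matrix.cons_val_zero, Matrix.cons_val_one]
    have h2 : (c ^ 2 + s ^ 2) ^ 2 = 1 := by rw [hcs]; norm_num
    linear_combination
      (A (EuclideanSpace.single 0 1) 0 * s ^ 2 -
        (A (EuclideanSpace.single 1 1) 0 + A (EuclideanSpace.single 0 1) 1) * c * s +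
        A (EuclideanSpace.single 1 1) 1 * c ^ 2) * hq +
      (A (EuclideanSpace.single 0 1) 0 * s ^ 2 -
        (A (EuclideanSpace.single 1 1) 0 + A (EuclideanSpace.single 0 1) 1) * c * s +
        A (EuclideanSpace.single 1 1) 1 * c ^ 2) * s ^ 2 * htr -
      (A (EuclideanSpace.single 0 1) 0 * A (EuclideanSpace.single 1 1) 1 -
        A (EuclideanSpace.single 1 1) 0 * A (EuclideanSpace.single 0 1) 1) * h2

theorem norm_eq_one_of_sq {x : E2} (h : x 0 ^ 2 + x 1 ^ 2 = 1) : ‖x‖ = 1 := by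
  have h1 : ‖x‖ ^ 2 = 1 := by rw [norm_sq_fin2, h]
  have h2 : 0 ≤ ‖x‖ := norm_nonneg x
  nlinarith

/-- **Frame lemma**, vector form: orthonormal `v, w` with `⟪A v, v⟫ = ⟪A w, w⟫ = 0`,
`⟪A w, v⟫ * ⟪A v, w⟫ = - det A`, and the expansion of every vector in the frame. -/
theorem exists_frame (A : E2 →L[ℝ] E2) (htr : LinearMap.trace ℝ _ A.toLinearMap = 0) :
    ∃ v w : E2, ‖v‖ = 1 ∧ ‖w‖ = 1 ∧ inner ℝ v w = 0 ∧
      inner ℝ (A v) v = 0 ∧ inner ℝ (A w) w = 0 ∧
      inner ℝ (A w) v * inner ℝ (A v) w = - LinearMap.det A.toLinearMap ∧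
      (∀ z : E2, z = inner ℝ z v • v + inner ℝ z w • w) := by
  obtain ⟨c, s, hcs, h1, h2, h3⟩ := exists_frame_coords A htr
  refine ⟨!₂[c, s], !₂[-s, c], ?_, ?_, ?_, h1, h2, h3, ?_⟩
  · apply norm_eq_one_of_sq; simpa using hcs
  · apply norm_eq_one_of_sq; simp only [Matrix.cons_val_zero, Matrix.cons_val_one]; linarith
  · rw [inner_fin2]; simp only [Matrix.cons_val_zero, Matrix.cons_val_one]; ring
  · intro z
    apply ext_fin2
    · simp only [inner_fin2, PiLp.add_apply, PiLp.smul_apply, smul_eq_mul, Matrix.cons_val_zero,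
        Matrix.cons_val_one]
      linear_combination (-(z 0)) * hcs
    · simp only [inner_fin2, PiLp.add_apply, PiLp.smul_apply, smul_eq_mul, Matrix.cons_val_zero,
        Matrix.cons_val_one]
      linear_combination (-(z 1)) * hcs

end Crest.Agent.Helper33
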