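import Mathlib
import Crest.Agent.Helper33.Ruled.Frame

/-!
# Row 211 / S0326: the local patch lemma

* `lattice_cover`: the integer lattice lemma.
* `frame_cover`: the sheared square lattice in a zero-diagonal frame covers the plane.
* `patch_point`: one point of the ruled set over a small patch lies in a moving lattice square.
-/

set_option autoImplicit false
open MeasureTheory
open scoped ENNReal

namespace Crest.Agent.Helper33

local notation "E2" => EuclideanSpace ℝ (Fin 2)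

/-- **Lattice lemma**, nonnegative case. -/
theorem lattice_nonneg (β γ : ℝ) (hβ : 0 ≤ β) (hγ : 0 ≤ γ) (h1 : β * γ < 1) (X Y : ℝ) :
    ∃ i j : ℤ, |X - i - β * j| ≤ 1 / 2 ∧ |Y - γ * i - j| ≤ 1 / 2 := by
  classical
  set ι : ℤ → ℤ := fun j => round (X - β * j) with hι
  set φ : ℤ → ℝ := fun j => Y - γ * ι j - j with hφ
  have hι1 : ∀ j : ℤ, |X - β * j - ι j| ≤ 1 / 2 := fun j => abs_sub_round _
  have hmono : ∀ j : ℤ, ι (j + 1) ≤ ι j := by
    intro j
    simp only [hι, round_eq]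
    apply Int.floor_mono
    push_cast
    nlinarith
  have hstep : ∀ j : ℤ, φ j - 1 ≤ φ (j + 1) := by
    intro j
    have h := hmono j
    have h' : (ι (j + 1) : ℝ) ≤ ι j := by exact_mod_cast h
    simp only [hφ]
    push_cast
    nlinarith
  have hpos : 0 < 1 - β * γ := by linarith
  have hub : ∀ j : ℤ, φ j ≤ Y - γ * X + γ / 2 - (1 - β * γ) * j := by
    intro j
    have h := abs_le.mp (hι1 j)
    simp only [hφ]
    nlinarith [h.1, h.2]
  have hlb : ∀ j : ℤ, Y - γ * X - γ / 2 - (1 - β * γ) * j ≤ φ j := by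
    intro j
    have h := abs_le.mp (hι1 j)
    simp only [hφ]
    nlinarith [h.1, h.2]
  have hex : ∃ j : ℤ, φ j ≤ 1 / 2 := by
    refine ⟨⌈(Y - γ * X + γ / 2 - 1 / 2) / (1 - β * γ)⌉, le_trans (hub _) ?_⟩
    have h := Int.le_ceil ((Y - γ * X + γ / 2 - 1 / 2) / (1 - β * γ))
    rw [div_le_iff₀ hpos] at h
    linarith
  have hbdd : ∃ b : ℤ, ∀ j : ℤ, φ j ≤ 1 / 2 → b ≤ j := by
    refine ⟨⌊(Y - γ * X - γ / 2 - 1 / 2) / (1 - β * γ)⌋, fun j hj => ?_⟩
    have h2 := hlb j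
    have h3 : (Y - γ * X - γ / 2 - 1 / 2) / (1 - β * γ) ≤ j := by
      rw [div_le_iff₀ hpos]; linarith
    exact Int.floor_le_iff.mpr (by linarith)
  obtain ⟨j, hj, hmin⟩ := Int.exists_least_of_bdd (P := fun j => φ j ≤ 1 / 2) hbdd hex
  refine ⟨ι j, j, ?_, ?_⟩
  · have := hι1 j
    rwa [show X - (ι j : ℝ) - β * j = X - β * j - ι j by ring]
  · have hprev : ¬ φ (j - 1) ≤ 1 / 2 := fun hc => by
      have := hmin (j - 1) hc
      omega
    have hs := hstep (j - 1)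
    rw [sub_add_cancel] at hs
    rw [abs_le]
    constructor
    · rw [not_le] at hprev; linarith
    · exact hj

/-- **Lattice lemma.** For reals `β, γ` with `0 ≤ βγ < 1` the unit squares centred at the points
`(i + β j, γ i + j)`, `i, j ∈ ℤ`, cover the plane. -/
theorem lattice_cover (β γ : ℝ) (h0 : 0 ≤ β * γ) (h1 : β * γ < 1) (X Y : ℝ) :
    ∃ i j : ℤ, |X - i - β * j| ≤ 1 / 2 ∧ |Y - γ * i - j| ≤ 1 / 2 := by
  by_cases hβ : 0 ≤ β
  · by_cases hγ : 0 ≤ γ
    · exact lattice_nonneg β γ hβ hγ h1 X Y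
    · rw [not_le] at hγ
      have hβ0 : β = 0 := by
        by_contra hne
        have : 0 < β := lt_of_le_of_ne hβ (Ne.symm hne)
        nlinarith
      obtain ⟨i, j, h2, h3⟩ := lattice_nonneg 0 (-γ) le_rfl (by linarith) (by simp) X (-Y)
      refine ⟨i, -j, ?_, ?_⟩
      · rw [hβ0]; simpa using h2
      · rw [← abs_neg]; push_cast
        rwa [show -(Y - γ * i - -(j : ℝ)) = -Y - -γ * i - j by ring]
  · rw [not_le] at hβ
    have hγ : γ ≤ 0 := by
      by_contra hc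
      rw [not_le] at hc
      nlinarith
    obtain ⟨i, j, h2, h3⟩ := lattice_nonneg (-β) (-γ) (by linarith) (by linarith)
      (by linarith [show -β * -γ = β * γ by ring]) X (-Y)
    refine ⟨i, -j, ?_, ?_⟩
    · push_cast
      rwa [show X - (i : ℝ) - β * -(j : ℝ) = X - i - -β * j by ring]
    · rw [← abs_neg]; push_cast
      rwa [show -(Y - γ * i - -(j : ℝ)) = -Y - -γ * i - j by ring]

section frame

variable (A : E2 →L[ℝ] E2) (v w : E2)

/-- In a zero-diagonal frame: `⟪d + s • A d, v⟫ = ⟪d, v⟫ + s β ⟪d, w⟫`. -/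
theorem inner_shear_left
    (hdec : ∀ z : E2, z = inner ℝ z v • v + inner ℝ z w • w)
    (hAv : inner ℝ (A v) v = 0) (s : ℝ) (d : E2) :
    inner ℝ (d + s • A d) v = inner ℝ d v + s * inner ℝ (A w) v * inner ℝ d w := by
  have hd : A d = inner ℝ d v • A v + inner ℝ d w • A w := by
    conv_lhs => rw [hdec d]
    simp
  rw [inner_add_left, inner_smul_left, hd, inner_add_left, inner_smul_left, inner_smul_left, hAv]
  simp only [conj_trivial]
  ring

/-- In a zero-diagonal frame: `⟪d + s • A d, w⟫ = ⟪d, w⟫ + s γ ⟪d, v⟫`. -/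
theorem inner_shear_right
    (hdec : ∀ z : E2, z = inner ℝ z v • v + inner ℝ z w • w)
    (hAw : inner ℝ (A w) w = 0) (s : ℝ) (d : E2) :
    inner ℝ (d + s • A d) w = inner ℝ d w + s * inner ℝ (A v) w * inner ℝ d v := by
  have hd : A d = inner ℝ d v • A v + inner ℝ d w • A w := by
    conv_lhs => rw [hdec d]
    simp
  rw [inner_add_left, inner_smul_left, hd, inner_add_left, inner_smul_left, inner_smul_left, hAw]
  simp only [conj_trivial]
  ring

/-- **Frame covering.** In a zero-diagonal frame `(v, w)` of `A` with off-diagonal entries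
`β = ⟪A w, v⟫`, `γ = ⟪A v, w⟫`, `0 ≤ s² β γ < 1`: every `ζ` differs from a lattice point
`ℓ i v + ℓ j w` by a vector `d` such that `d + s A d` lies in the centred square of side `ℓ`. -/
theorem frame_cover
    (hv : ‖v‖ = 1) (hw : ‖w‖ = 1) (hvw : inner ℝ v w = 0)
    (s : ℝ) (h0 : 0 ≤ s ^ 2 * (inner ℝ (A w) v * inner ℝ (A v) w))
    (h1 : s ^ 2 * (inner ℝ (A w) v * inner ℝ (A v) w) < 1)
    (ℓ : ℝ) (hℓ : 0 < ℓ) (ζ : E2) :
    ∃ i j : ℤ,
      |inner ℝ (ζ - (ℓ * i) • v - (ℓ * j) • w) v +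
          s * inner ℝ (A w) v * inner ℝ (ζ - (ℓ * i) • v - (ℓ * j) • w) w| ≤ ℓ / 2 ∧
      |inner ℝ (ζ - (ℓ * i) • v - (ℓ * j) • w) w +
          s * inner ℝ (A v) w * inner ℝ (ζ - (ℓ * i) • v - (ℓ * j) • w) v| ≤ ℓ / 2 := by
  set β := inner ℝ (A w) v with hβ
  set γ := inner ℝ (A v) w with hγ
  have hvv : inner ℝ v v = (1 : ℝ) := by rw [real_inner_self_eq_norm_sq, hv]; norm_num
  have hww : inner ℝ w w = (1 : ℝ) := by rw [real_inner_self_eq_norm_sq, hw]; norm_num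
  have hwv : inner ℝ w v = (0 : ℝ) := by rw [real_inner_comm]; exact hvw
  obtain ⟨i, j, h2, h3⟩ := lattice_cover (s * β) (s * γ)
    (by rw [show s * β * (s * γ) = s ^ 2 * (β * γ) by ring]; exact h0)
    (by rw [show s * β * (s * γ) = s ^ 2 * (β * γ) by ring]; exact h1)
    (inner ℝ ζ v / ℓ + s * β * (inner ℝ ζ w / ℓ)) (inner ℝ ζ w / ℓ + s * γ * (inner ℝ ζ v / ℓ))
  refine ⟨i, j, ?_, ?_⟩
  · have hdv : inner ℝ (ζ - (ℓ * i) • v - (ℓ * j) • w) v = inner ℝ ζ v - ℓ * i := by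
      rw [inner_sub_left, inner_sub_left, inner_smul_left, inner_smul_left, hvv, hwv]; simp
    have hdw : inner ℝ (ζ - (ℓ * i) • v - (ℓ * j) • w) w = inner ℝ ζ w - ℓ * j := by
      rw [inner_sub_left, inner_sub_left, inner_smul_left, inner_smul_left, hvw, hww]; simp
    rw [hdv, hdw]
    have : inner ℝ ζ v - ℓ * i + s * β * (inner ℝ ζ w - ℓ * j) =
        ℓ * (inner ℝ ζ v / ℓ + s * β * (inner ℝ ζ w / ℓ) - i - s * β * j) := by
      field_simp
      ring
    rw [this, abs_mul, abs_of_pos hℓ]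
    nlinarith
  · have hdv : inner ℝ (ζ - (ℓ * i) • v - (ℓ * j) • w) v = inner ℝ ζ v - ℓ * i := by
      rw [inner_sub_left, inner_sub_left, inner_smul_left, inner_smul_left, hvv, hwv]; simp
    have hdw : inner ℝ (ζ - (ℓ * i) • v - (ℓ * j) • w) w = inner ℝ ζ w - ℓ * j := by
      rw [inner_sub_left, inner_sub_left, inner_smul_left, inner_smul_left, hvw, hww]; simp
    rw [hdv, hdw]
    have : inner ℝ ζ w - ℓ * j + s * γ * (inner ℝ ζ v - ℓ * i) =
        ℓ * (inner ℝ ζ w / ℓ + s * γ * (inner ℝ ζ v / ℓ) - s * γ * i - j) := by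
      field_simp
      ring
    rw [this, abs_mul, abs_of_pos hℓ]
    nlinarith

end frame

/-- **One point of the ruled set over a patch.**  `A` is the derivative of `V` at the patch centre
`p₀`, `(v, w)` a zero-diagonal frame of `A`.  If `V` is linearised by `A` near `p` with relative
error `η / (2 L C₁)`, `C₁ = (1 + L B) / κ`, then for every `|s| ≤ L` the point `p + s • V p` lies in
a square of side `(1 + η) ℓ` centred at a lattice point `c = p₀ + ℓ i v + ℓ j w` and moving with the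
velocity `V c`; moreover `‖p - c‖ ≤ C₁ ℓ`. -/
theorem patch_point (V : E2 → E2) (A : E2 →L[ℝ] E2) (v w : E2)
    (hdec : ∀ z : E2, z = inner ℝ z v • v + inner ℝ z w • w)
    (hv : ‖v‖ = 1) (hw : ‖w‖ = 1) (hvw : inner ℝ v w = 0)
    (hAv : inner ℝ (A v) v = 0) (hAw : inner ℝ (A w) w = 0)
    (L B κ : ℝ) (hL : 0 < L) (hB0 : 0 ≤ B) (hB : ‖A‖ ≤ B) (hκ : 0 < κ)
    (hdet : 0 ≤ inner ℝ (A w) v * inner ℝ (A v) w)
    (hκs : ∀ s : ℝ, |s| ≤ L → κ ≤ 1 - s ^ 2 * (inner ℝ (A w) v * inner ℝ (A v) w))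
    (p₀ : E2) (ℓ : ℝ) (hℓ : 0 < ℓ) (η : ℝ) (hη : 0 < η)
    (p : E2) (s : ℝ) (hs : |s| ≤ L)
    (hlin : ∀ q : E2, ‖p - q‖ ≤ (1 + L * B) / κ * ℓ →
      ‖V p - V q - A (p - q)‖ ≤ η / (2 * L * ((1 + L * B) / κ)) * ‖p - q‖) :
    ∃ i j : ℤ, ‖p - (p₀ + (ℓ * i) • v + (ℓ * j) • w)‖ ≤ (1 + L * B) / κ * ℓ ∧
      ∃ x ∈ Set.Icc (0 : ℝ) 1, ∃ y ∈ Set.Icc (0 : ℝ) 1,
        p + s • V p =
          (p₀ + (ℓ * i) • v + (ℓ * j) • w - ((1 + η) * ℓ / 2) • v - ((1 + η) * ℓ / 2) • w)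
            + x • (((1 + η) * ℓ) • v) + y • (((1 + η) * ℓ) • w)
            + s • V (p₀ + (ℓ * i) • v + (ℓ * j) • w) := by
  have hκ1 := hκs s hs
  obtain ⟨i, j, h2, h3⟩ := frame_cover A v w hv hw hvw s (by positivity) (by linarith) ℓ hℓ
    (p - p₀)
  refine ⟨i, j, ?_⟩
  set β := inner ℝ (A w) v with hβ
  set γ := inner ℝ (A v) w with hγ
  set cm := p₀ + (ℓ * i) • v + (ℓ * j) • w with hcm
  set d := p - cm with hd
  have hd' : p - p₀ - (ℓ * i) • v - (ℓ * j) • w = d := by rw [hd, hcm]; abel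
  rw [hd'] at h2 h3
  set ξ := inner ℝ d v with hξdef
  set υ := inner ℝ d w with hυdef
  have hβB : |β| ≤ B := by
    refine (abs_real_inner_le_norm _ _).trans ?_
    rw [hv, mul_one]
    exact (A.le_opNorm w).trans (by rw [hw, mul_one]; exact hB)
  have hγB : |γ| ≤ B := by
    refine (abs_real_inner_le_norm _ _).trans ?_
    rw [hw, mul_one]
    exact (A.le_opNorm v).trans (by rw [hv, mul_one]; exact hB)
  have hsβ : |s * β| ≤ L * B := by rw [abs_mul]; exact mul_le_mul hs hβB (abs_nonneg _) hL.le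
  have hsγ : |s * γ| ≤ L * B := by rw [abs_mul]; exact mul_le_mul hs hγB (abs_nonneg _) hL.le
  have hLB : 0 ≤ L * B := by positivity
  have hξ : |ξ| * κ ≤ (1 + L * B) * ℓ / 2 := by
    have e1 : (1 - s ^ 2 * (β * γ)) * ξ = (ξ + s * β * υ) - s * β * (υ + s * γ * ξ) := by ring
    have h4 : |(1 - s ^ 2 * (β * γ)) * ξ| ≤ ℓ / 2 + L * B * (ℓ / 2) := by
      rw [e1]
      refine (abs_sub _ _).trans ?_
      rw [abs_mul (s * β)]
      exact add_le_add h2 (mul_le_mul hsβ h3 (abs_nonneg _) hLB)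
    rw [abs_mul, abs_of_pos (by linarith : 0 < 1 - s ^ 2 * (β * γ))] at h4
    nlinarith [abs_nonneg ξ]
  have hυ : |υ| * κ ≤ (1 + L * B) * ℓ / 2 := by
    have e1 : (1 - s ^ 2 * (β * γ)) * υ = (υ + s * γ * ξ) - s * γ * (ξ + s * β * υ) := by ring
    have h4 : |(1 - s ^ 2 * (β * γ)) * υ| ≤ ℓ / 2 + L * B * (ℓ / 2) := by
      rw [e1]
      refine (abs_sub _ _).trans ?_
      rw [abs_mul (s * γ)]
      exact add_le_add h3 (mul_le_mul hsγ h2 (abs_nonneg _) hLB)
    rw [abs_mul, abs_of_pos (by linarith : 0 < 1 - s ^ 2 * (β * γ))] at h4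
    nlinarith [abs_nonneg υ]
  have hC₁ : 0 < (1 + L * B) / κ := by positivity
  have hdn : ‖d‖ ≤ (1 + L * B) / κ * ℓ := by
    have h5 : ‖d‖ ≤ |ξ| + |υ| := by
      calc ‖d‖ = ‖ξ • v + υ • w‖ := by rw [← hdec d]
        _ ≤ ‖ξ • v‖ + ‖υ • w‖ := norm_add_le _ _
        _ = |ξ| + |υ| := by rw [norm_smul, norm_smul, hv, hw, mul_one, mul_one]; rfl
    have h6 : (|ξ| + |υ|) * κ ≤ (1 + L * B) * ℓ := by linarith
    have h7 : |ξ| + |υ| ≤ (1 + L * B) * ℓ / κ := by rwa [le_div_iff₀ hκ]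
    calc ‖d‖ ≤ |ξ| + |υ| := h5
      _ ≤ (1 + L * B) * ℓ / κ := h7
      _ = (1 + L * B) / κ * ℓ := by ring
  refine ⟨hdn, ?_⟩
  set E := V p - V cm - A d with hE
  have hEn : |s| * ‖E‖ ≤ η * ℓ / 2 := by
    have h8 := hlin cm hdn
    have h9 : ‖E‖ ≤ η / (2 * L * ((1 + L * B) / κ)) * ((1 + L * B) / κ * ℓ) :=
      h8.trans (mul_le_mul_of_nonneg_left hdn (by positivity))
    have h10 : η / (2 * L * ((1 + L * B) / κ)) * ((1 + L * B) / κ * ℓ) = η * ℓ / (2 * L) := by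
      field_simp
    rw [h10] at h9
    calc |s| * ‖E‖ ≤ L * (η * ℓ / (2 * L)) := mul_le_mul hs h9 (norm_nonneg _) hL.le
      _ = η * ℓ / 2 := by field_simp
  set r := d + s • A d + s • E with hr
  have hrv : inner ℝ r v = (ξ + s * β * υ) + s * inner ℝ E v := by
    rw [hr, inner_add_left, inner_shear_left A v w hdec hAv, inner_smul_left]
    simp only [conj_trivial]
    rfl
  have hrw : inner ℝ r w = (υ + s * γ * ξ) + s * inner ℝ E w := by
    rw [hr, inner_add_left, inner_shear_right A v w hdec hAw, inner_smul_left]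
    simp only [conj_trivial]
    rfl
  have hEv : |s * inner ℝ E v| ≤ η * ℓ / 2 := by
    rw [abs_mul]
    refine le_trans (mul_le_mul_of_nonneg_left ?_ (abs_nonneg s)) hEn
    exact (abs_real_inner_le_norm _ _).trans (by rw [hv, mul_one])
  have hEw : |s * inner ℝ E w| ≤ η * ℓ / 2 := by
    rw [abs_mul]
    refine le_trans (mul_le_mul_of_nonneg_left ?_ (abs_nonneg s)) hEn
    exact (abs_real_inner_le_norm _ _).trans (by rw [hw, mul_one])
  set H := (1 + η) * ℓ with hH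
  have hHpos : 0 < H := by positivity
  have hrv' : |inner ℝ r v| ≤ H / 2 := by
    rw [hrv]
    refine (abs_add_le _ _).trans ?_
    rw [hH]; linarith
  have hrw' : |inner ℝ r w| ≤ H / 2 := by
    rw [hrw]
    refine (abs_add_le _ _).trans ?_
    rw [hH]; linarith
  have hrv2 := abs_le.mp hrv'
  have hrw2 := abs_le.mp hrw'
  refine ⟨(inner ℝ r v + H / 2) / H, ⟨div_nonneg (by linarith) hHpos.le,
    (div_le_one hHpos).mpr (by linarith)⟩, (inner ℝ r w + H / 2) / H,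
    ⟨div_nonneg (by linarith) hHpos.le, (div_le_one hHpos).mpr (by linarith)⟩, ?_⟩
  have hx : (inner ℝ r v + H / 2) / H * H = inner ℝ r v + H / 2 := div_mul_cancel₀ _ hHpos.ne'
  have hy : (inner ℝ r w + H / 2) / H * H = inner ℝ r w + H / 2 := div_mul_cancel₀ _ hHpos.ne'
  rw [smul_smul, smul_smul, hx, hy]
  have hrdec := hdec r
  have hp : p + s • V p = cm + r + s • V cm := by
    rw [hr, hE, hd]
    simp only [map_sub, smul_sub]
    abel
  rw [hp]
  conv_lhs => rw [hrdec]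
  module

end Crest.Agent.Helper33
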