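import Mathlib
import Crest.Agent.Helper33.Ruled.Local
import Crest.Agent.Helper19.Ruled.Defs
import Crest.Agent.Helper21.Ruled.Packing
import Crest.Agent.Helper71.Ruled.Adapters

/-!
# Row 211 / S0326: the local covering statement `LocalCover`

`localCover_core`: the local patch lemma from abstract analytic inputs (uniform strict
differentiability, bounds, uniform continuity of the cost density).
`localCover`: `Crest.Agent.Helper19.LocalCover D V L h` from the data of S0326.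
-/

set_option autoImplicit false
open MeasureTheory
open scoped ENNReal

namespace Crest.Agent.Helper33

local notation "E2" => EuclideanSpace ℝ (Fin 2)

/-- Averaging bound: if `card I * ℓ² ≤ W` and `W * F m ≤ T` for all `m ∈ I` then
`∑ m ∈ I, ℓ² F m ≤ T`. -/
theorem sum_sq_le {ι : Type*} (I : Finset ι) (F : ι → ℝ) (ℓ W T : ℝ) (hT : 0 ≤ T)
    (hcard : (I.card : ℝ) * ℓ ^ 2 ≤ W) (hF0 : ∀ m ∈ I, 0 ≤ F m)
    (hFT : ∀ m ∈ I, W * F m ≤ T) : ∑ m ∈ I, ℓ ^ 2 * F m ≤ T := by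
  rcases Nat.eq_zero_or_pos I.card with h0 | hpos
  · rw [Finset.card_eq_zero] at h0
    subst h0
    simpa using hT
  · have hc : (0 : ℝ) < I.card := by exact_mod_cast hpos
    have h1 : ∀ m ∈ I, ℓ ^ 2 * F m ≤ T / I.card := by
      intro m hm
      rw [le_div_iff₀ hc]
      have h2 := hFT m hm
      have h3 := mul_le_mul_of_nonneg_right hcard (hF0 m hm)
      nlinarith
    calc ∑ m ∈ I, ℓ ^ 2 * F m ≤ I.card • (T / I.card) := Finset.sum_le_card_nsmul _ _ _ h1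
      _ = T := by rw [nsmul_eq_mul]; field_simp

/-- Closed thickenings of a compact set have volume close to the volume of the set. -/
theorem exists_cthickening_toReal_le (D' : Set E2) (hD' : IsCompact D') (ε : ℝ) (hε : 0 < ε) :
    ∃ r₀ > 0, ∀ r : ℝ, |r| < r₀ →
      (volume (Metric.cthickening r D')).toReal ≤ (volume D').toReal + ε := by
  have ht := tendsto_measure_cthickening_of_isCompact (μ := (volume : Measure E2)) hD'
  have hfin : volume D' ≠ ⊤ := hD'.measure_lt_top.ne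
  have hlt : volume D' < volume D' + ENNReal.ofReal ε :=
    ENNReal.lt_add_right hfin (by simpa using hε)
  have hev := ht.eventually (gt_mem_nhds hlt)
  obtain ⟨r₀, hr₀, hr⟩ := Metric.eventually_nhds_iff.mp hev
  refine ⟨r₀, hr₀, fun r hr' => ?_⟩
  have h1 := hr (show dist r 0 < r₀ by simpa [Real.dist_eq] using hr')
  calc (volume (Metric.cthickening r D')).toReal
      ≤ (volume D' + ENNReal.ofReal ε).toReal :=
        ENNReal.toReal_mono (by simp [hfin]) h1.le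
    _ = (volume D').toReal + ε := by
        rw [ENNReal.toReal_add hfin ENNReal.ofReal_ne_top, ENNReal.toReal_ofReal hε.le]

/-- **Local patch lemma**, from abstract analytic inputs. -/
theorem localCover_core
    (D : Set E2) (V : E2 → E2) (L h : ℝ) (hL : 0 < L)
    (htr : ∀ p ∈ D, LinearMap.trace ℝ _ (fderiv ℝ V p).toLinearMap = 0)
    (hdet : ∀ p ∈ D, LinearMap.det (fderiv ℝ V p).toLinearMap ≤ 0)
    (hUSD : ∀ η > 0, ∃ δ > 0, ∀ p₀ ∈ D, ∀ p q : E2, dist p p₀ < δ → dist q p₀ < δ →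
      ‖V p - V q - fderiv ℝ V p₀ (p - q)‖ ≤ η * ‖p - q‖)
    (hB : ∃ B : ℝ, ∀ p ∈ D, ‖fderiv ℝ V p‖ ≤ B)
    (hκ : ∃ κ > 0, ∀ p ∈ D, ∀ s : ℝ, |s| ≤ L →
      κ ≤ 1 + s ^ 2 * LinearMap.det (fderiv ℝ V p).toLinearMap)
    (hJ : ∀ θ' > 0, ∃ δ' > 0, ∀ p ∈ D, ∀ z : E2, dist z p ≤ δ' →
      |1 / Real.sqrt (1 + (V z 0) ^ 2 + h ^ 2 * (V z 1) ^ 2)
        - 1 / Real.sqrt (1 + (V p 0) ^ 2 + h ^ 2 * (V p 1) ^ 2)| ≤ θ')
    (hJD : ContinuousOn (fun p : E2 => 1 / Real.sqrt (1 + (V p 0) ^ 2 + h ^ 2 * (V p 1) ^ 2)) D) :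
    ∀ θ : ℝ, 0 < θ → ∃ δ : ℝ, 0 < δ ∧ ∀ D' : Set E2, D' ⊆ D → IsCompact D' →
      (∀ x ∈ D', ∀ y ∈ D', dist x y ≤ δ) → ∀ ε' : ℝ, 0 < ε' →
      ∃ (k : ℕ) (c a b g : Fin k → E2),
        (∀ i, a i ≠ 0 ∧ ‖b i‖ = ‖a i‖ ∧ inner ℝ (a i) (b i) = 0) ∧
        {z : ℝ × E2 | ∃ p ∈ D', |z.1| ≤ L ∧ z.2 = p + z.1 • V p} ⊆
          ⋃ i, {z : ℝ × E2 | ∃ x ∈ Set.Icc (0 : ℝ) 1, ∃ y ∈ Set.Icc (0 : ℝ) 1,
            z.2 = c i + x • a i + y • b i + z.1 • g i} ∧
        ∑ i, ‖a i‖ ^ 2 / Real.sqrt (1 + (g i 0) ^ 2 + h ^ 2 * (g i 1) ^ 2) ≤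
          (1 + θ) * (∫ p in D', 1 / Real.sqrt (1 + (V p 0) ^ 2 + h ^ 2 * (V p 1) ^ 2))
            + θ * (volume D').toReal + ε' := by
  intro θ hθ
  obtain ⟨B₀, hB₀⟩ := hB
  obtain ⟨κ, hκ, hκD⟩ := hκ
  set B := max B₀ 0 with hBdef
  have hB0 : 0 ≤ B := le_max_right _ _
  set C₁ := (1 + L * B) / κ with hC₁def
  have hC₁ : 0 < C₁ := by positivity
  set η := min 1 (θ / 3) with hηdef
  have hη : 0 < η := lt_min one_pos (by positivity)
  have hη1 : η ≤ 1 := min_le_left _ _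
  have hη3 : η ≤ θ / 3 := min_le_right _ _
  have hη2 : (1 + η) ^ 2 ≤ 1 + θ := by nlinarith
  obtain ⟨δU, hδU, hUSD'⟩ := hUSD (η / (2 * L * C₁)) (by positivity)
  obtain ⟨δJ, hδJ, hJ'⟩ := hJ (θ / (1 + θ) / 2) (by positivity)
  refine ⟨min (δU / 2) δJ, lt_min (by positivity) hδJ, ?_⟩
  intro D' hD'D hD'c hdiam ε' hε'
  rcases D'.eq_empty_or_nonempty with hempty | ⟨p₀, hp₀⟩
  · subst hempty
    refine ⟨0, Fin.elim0, Fin.elim0, Fin.elim0, Fin.elim0, fun i => i.elim0, ?_, ?_⟩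
    · rintro z ⟨p, hp, _⟩
      exact absurd hp (Set.notMem_empty p)
    · simp only [Finset.univ_eq_empty, Finset.sum_empty, Measure.restrict_empty,
        integral_zero_measure, mul_zero, measure_empty, ENNReal.toReal_zero, zero_add]
      exact hε'.le
  · have hp₀D := hD'D hp₀
    set A := fderiv ℝ V p₀ with hA
    obtain ⟨v, w, hv, hw, hvw, hAv, hAw, hprod, hdec⟩ := exists_frame A (htr p₀ hp₀D)
    have hAB : ‖A‖ ≤ B := (hB₀ p₀ hp₀D).trans (le_max_left _ _)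
    have hdet0 : 0 ≤ inner ℝ (A w) v * inner ℝ (A v) w := by
      rw [hprod]; linarith [hdet p₀ hp₀D]
    have hκs : ∀ s : ℝ, |s| ≤ L → κ ≤ 1 - s ^ 2 * (inner ℝ (A w) v * inner ℝ (A v) w) := by
      intro s hs
      rw [hprod]
      linarith [hκD p₀ hp₀D s hs]
    set J : E2 → ℝ := fun z => 1 / Real.sqrt (1 + (V z 0) ^ 2 + h ^ 2 * (V z 1) ^ 2) with hJdef
    have hJ0 : ∀ z, 0 ≤ J z := fun z => by positivity
    have hJ1 : ∀ z, J z ≤ 1 := fun z => by
      have h1 : (1 : ℝ) ≤ Real.sqrt (1 + (V z 0) ^ 2 + h ^ 2 * (V z 1) ^ 2) := by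
        rw [Real.one_le_sqrt]
        nlinarith [sq_nonneg (V z 0), sq_nonneg (h * V z 1)]
      exact (div_le_one (by linarith)).mpr h1
    set vD := (volume D').toReal with hvD
    have hvD0 : 0 ≤ vD := ENNReal.toReal_nonneg
    set Iint := ∫ p in D', J p with hIint
    have hIint0 : 0 ≤ Iint := setIntegral_nonneg hD'c.measurableSet (fun p _ => hJ0 p)
    set ε'' := ε' / (1 + θ) with hε''def
    have hε'' : 0 < ε'' := by positivity
    obtain ⟨r₀, hr₀, hthick⟩ := exists_cthickening_toReal_le D' hD'c ε'' hε''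
    set ℓ := min (r₀ / (2 * (C₁ + 1))) (min (δU / (4 * C₁)) (δJ / C₁)) with hℓdef
    have hℓ : 0 < ℓ := lt_min (by positivity) (lt_min (by positivity) (by positivity))
    have hℓ1 : (C₁ + 1) * ℓ < r₀ := by
      have h1 : ℓ ≤ r₀ / (2 * (C₁ + 1)) := min_le_left _ _
      rw [le_div_iff₀ (by positivity)] at h1
      nlinarith
    have hℓ2 : C₁ * ℓ ≤ δU / 4 := by
      have h1 : ℓ ≤ δU / (4 * C₁) := (min_le_right _ _).trans (min_le_left _ _)
      rw [le_div_iff₀ (by positivity)] at h1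
      nlinarith
    have hℓ3 : C₁ * ℓ ≤ δJ := by
      have h1 : ℓ ≤ δJ / C₁ := (min_le_right _ _).trans (min_le_right _ _)
      rw [le_div_iff₀ (by positivity)] at h1
      nlinarith
    have hfin := Crest.Agent.Helper21.lattice_near_finite v w hv hw hvw p₀ ℓ hℓ D'
      hD'c.isBounded (C₁ * ℓ)
    set I := hfin.toFinset with hIdef
    have hI : ∀ m ∈ I, ∃ q ∈ D',
        dist (p₀ + (ℓ * (m.1 : ℝ)) • v + (ℓ * (m.2 : ℝ)) • w) q ≤ C₁ * ℓ :=
      fun m hm => hfin.mem_toFinset.mp hm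
    have hcard : (I.card : ℝ) * ℓ ^ 2 ≤ vD + ε'' := by
      have h1 := Crest.Agent.Helper21.packing_real v w hv hw hvw p₀ ℓ hℓ D' hD'c.isBounded
        (C₁ * ℓ) (by positivity) I hI
      refine h1.trans (hthick _ ?_)
      rw [abs_of_pos (by positivity)]
      linarith
    have hosc : ∀ m ∈ I, ∀ p ∈ D',
        J (p₀ + (ℓ * (m.1 : ℝ)) • v + (ℓ * (m.2 : ℝ)) • w) ≤ J p + θ / (1 + θ) := by
      intro m hm p hp
      obtain ⟨q, hq, hdq⟩ := hI m hm
      have h1 := hJ' q (hD'D hq) _ (hdq.trans hℓ3)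
      have h2 := hJ' p (hD'D hp) q ((hdiam q hq p hp).trans (min_le_right _ _))
      have h1' := (abs_le.mp h1).2
      have h2' := (abs_le.mp h2).2
      simp only [hJdef]
      linarith
    have hJint : IntegrableOn J D' volume := (hJD.mono hD'D).integrableOn_compact hD'c
    have hJm : ∀ m ∈ I, J (p₀ + (ℓ * (m.1 : ℝ)) • v + (ℓ * (m.2 : ℝ)) • w) * vD ≤
        Iint + θ / (1 + θ) * vD := by
      intro m hm
      have h1 : ∫ _ in D', (J (p₀ + (ℓ * (m.1 : ℝ)) • v + (ℓ * (m.2 : ℝ)) • w) - θ / (1 + θ)) ≤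
          ∫ p in D', J p :=
        setIntegral_mono_on (integrableOn_const (hD'c.measure_lt_top.ne)) hJint
          hD'c.measurableSet (fun p hp => by linarith [hosc m hm p hp])
      rw [setIntegral_const, smul_eq_mul, measureReal_def] at h1
      nlinarith
    set H := (1 + η) * ℓ with hH
    have hHpos : 0 < H := by positivity
    let e := I.equivFin
    let cm : Fin I.card → E2 := fun i =>
      p₀ + (ℓ * (((e.symm i : I) : ℤ × ℤ).1 : ℝ)) • v + (ℓ * (((e.symm i : I) : ℤ × ℤ).2 : ℝ)) • w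
    refine ⟨I.card, fun i => cm i - (H / 2) • v - (H / 2) • w, fun _ => H • v, fun _ => H • w,
      fun i => V (cm i), ?_, ?_, ?_⟩
    · intro i
      refine ⟨?_, ?_, ?_⟩
      · intro h0
        have h1 : ‖H • v‖ = 0 := by rw [show H • v = 0 from h0, norm_zero]
        rw [norm_smul, hv, mul_one, Real.norm_eq_abs, abs_of_pos hHpos] at h1
        linarith
      · rw [norm_smul, norm_smul, hv, hw]
      · rw [inner_smul_left, inner_smul_right, hvw]; simp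
    · rintro ⟨s, ξ⟩ ⟨p, hp, hs, hξ⟩
      simp only at hs hξ
      have hpp₀ : dist p p₀ ≤ δU / 2 := (hdiam p hp p₀ hp₀).trans (min_le_left _ _)
      have hlin : ∀ q : E2, ‖p - q‖ ≤ (1 + L * B) / κ * ℓ →
          ‖V p - V q - A (p - q)‖ ≤ η / (2 * L * ((1 + L * B) / κ)) * ‖p - q‖ := by
        intro q hq
        have hq' : ‖p - q‖ ≤ C₁ * ℓ := hq
        have h1 : dist p p₀ < δU := lt_of_le_of_lt hpp₀ (by linarith)
        have h2 : dist q p₀ < δU := by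
          have h3 : dist q p ≤ C₁ * ℓ := by rw [dist_comm, dist_eq_norm]; exact hq'
          have h4 := dist_triangle q p p₀
          linarith
        exact hUSD' p₀ hp₀D p q h1 h2
      obtain ⟨i, j, hnorm, x, hx, y, hy, heq⟩ := patch_point V A v w hdec hv hw hvw hAv hAw
        L B κ hL hB0 hAB hκ hdet0 hκs p₀ ℓ hℓ η hη p s hs hlin
      have hm : (i, j) ∈ I :=
        hfin.mem_toFinset.mpr ⟨p, hp, by rw [dist_comm, dist_eq_norm]; exact hnorm⟩
      refine Set.mem_iUnion.mpr ⟨e ⟨(i, j), hm⟩, x, hx, y, hy, ?_⟩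
      simp only [cm, Equiv.symm_apply_apply]
      rw [hξ]
      exact heq
    · have hterm : ∀ i : Fin I.card,
          ‖H • v‖ ^ 2 / Real.sqrt (1 + (V (cm i) 0) ^ 2 + h ^ 2 * (V (cm i) 1) ^ 2) =
            (1 + η) ^ 2 * (ℓ ^ 2 * J (cm i)) := by
        intro i
        rw [norm_smul, hv, mul_one, Real.norm_eq_abs, abs_of_pos hHpos, hH]
        simp only [hJdef]
        ring
      simp only [hterm]
      rw [← Finset.mul_sum]
      have hsum : ∑ i : Fin I.card, ℓ ^ 2 * J (cm i) =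
          ∑ m ∈ I, ℓ ^ 2 * J (p₀ + (ℓ * (m.1 : ℝ)) • v + (ℓ * (m.2 : ℝ)) • w) := by
        rw [← Finset.sum_coe_sort I
          (fun m => ℓ ^ 2 * J (p₀ + (ℓ * (m.1 : ℝ)) • v + (ℓ * (m.2 : ℝ)) • w))]
        exact Equiv.sum_comp e.symm (fun x : I =>
          ℓ ^ 2 * J (p₀ + (ℓ * ((x : ℤ × ℤ).1 : ℝ)) • v + (ℓ * ((x : ℤ × ℤ).2 : ℝ)) • w))
      rw [hsum]
      have hT := sum_sq_le I (fun m => J (p₀ + (ℓ * (m.1 : ℝ)) • v + (ℓ * (m.2 : ℝ)) • w)) ℓ
        (vD + ε'') (Iint + θ / (1 + θ) * vD + ε'') (by positivity) hcard (fun m _ => hJ0 _)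
        (fun m hm => by
          have h1 := hJm m hm
          have h2 := hJ1 (p₀ + (ℓ * (m.1 : ℝ)) • v + (ℓ * (m.2 : ℝ)) • w)
          nlinarith)
      calc (1 + η) ^ 2 * ∑ m ∈ I, ℓ ^ 2 * J (p₀ + (ℓ * (m.1 : ℝ)) • v + (ℓ * (m.2 : ℝ)) • w)
          ≤ (1 + θ) * (Iint + θ / (1 + θ) * vD + ε'') :=
            mul_le_mul hη2 hT (Finset.sum_nonneg fun m _ => mul_nonneg (sq_nonneg _) (hJ0 _))
              (by positivity)
        _ = (1 + θ) * Iint + θ * vD + ε' := by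
            rw [hε''def]; field_simp

/-- **`LocalCover` from the data of S0326** (helper19's interface; consumed by
`Crest.Agent.Helper19.s0326_of_localCover`). -/
theorem localCover
    (D : Set (EuclideanSpace ℝ (Fin 2))) (hD : IsCompact D)
    (V : EuclideanSpace ℝ (Fin 2) → EuclideanSpace ℝ (Fin 2)) (U : Set (EuclideanSpace ℝ (Fin 2)))
    (hU : IsOpen U) (hDU : D ⊆ U) (hV : ContDiffOn ℝ 1 V U) (L h : ℝ) (hL : 0 < L) (hh : 0 < h)
    (htr : ∀ p ∈ D, LinearMap.trace ℝ _ (fderiv ℝ V p).toLinearMap = 0)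
    (hdet : ∀ p ∈ D, -(L ^ 2)⁻¹ < LinearMap.det (fderiv ℝ V p).toLinearMap ∧
      LinearMap.det (fderiv ℝ V p).toLinearMap ≤ 0) :
    Crest.Agent.Helper19.LocalCover D V L h := by
  intro θ hθ
  obtain ⟨δ, hδ, H⟩ := localCover_core D V L h hL htr (fun p hp => (hdet p hp).2)
    (Crest.Agent.Helper71.usd hD hU hDU hV) (Crest.Agent.Helper71.hB hD hU hDU hV)
    (Crest.Agent.Helper71.hκ hD hU hDU hV hL (fun p hp => (hdet p hp).1))
    (Crest.Agent.Helper71.hJ hD hU hDU hV hh) (Crest.Agent.Helper71.hJD hDU hV h) θ hθ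
  exact ⟨δ, hδ, fun D' hD'D hD'c hdiam ε' hε' => H D' hD'D hD'c hdiam ε' hε'⟩

end Crest.Agent.Helper33
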